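import Mathlib
import Vale.Agent.Lib.P084.SepRed

/-!
# P084 (Tingley's problem): the Mazur-Ulam property is separably determined

If every nonzero closed separable subspace `E` of a real Banach space `X` has the Mazur-Ulam
property with respect to nonzero separable Banach targets, then `X` has the Mazur-Ulam property
(with respect to all Banach targets).
-/

namespace Vale.Agent.Results.P084.SeparableDetermination

universe u v

theorem result (X : Type u) [NormedAddCommGroup X] [NormedSpace ℝ X] [CompleteSpace X]
    (hsep : ∀ E : Submodule ℝ X, IsClosed (E : Set X) →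
      TopologicalSpace.IsSeparable (E : Set X) → Nontrivial E →
      ∀ (Z : Type v) [NormedAddCommGroup Z] [NormedSpace ℝ Z] [CompleteSpace Z]
        [TopologicalSpace.SeparableSpace Z] [Nontrivial Z]
        (g : Metric.sphere (0 : E) 1 → Metric.sphere (0 : Z) 1),
        Isometry g → Function.Surjective g →
        ∃ T : E ≃ₗᵢ[ℝ] Z, ∀ x : Metric.sphere (0 : E) 1, T (x : E) = (g x : Z))
    (Y : Type v) [NormedAddCommGroup Y] [NormedSpace ℝ Y] [CompleteSpace Y]
    (f : Metric.sphere (0 : X) 1 → Metric.sphere (0 : Y) 1)
    (hf : Isometry f) (hs : Function.Surjective f) :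
    ∃ T : X ≃ₗᵢ[ℝ] Y, ∀ x : Metric.sphere (0 : X) 1, T (x : X) = (f x : Y) :=
  Vale.Agent.Lib.P084.extends_of_additive f hf hs
    (Vale.Agent.Lib.P084.sep_additive hsep f hf hs)

end Vale.Agent.Results.P084.SeparableDetermination
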