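import Mathlib
import Vale.Agent.Lib.P084.SepRed

/-!
# P084 (Tingley's problem): reduction to separable Banach spaces

If every surjective isometry between the unit spheres of two nonzero separable real Banach spaces
extends linearly, then the same holds for all real Banach spaces.
-/

namespace Vale.Agent.Results.P084.SeparableReduction

universe u v

theorem result
    (hsep : ∀ (X : Type u) (Y : Type v)
      [NormedAddCommGroup X] [NormedSpace ℝ X] [CompleteSpace X]
      [TopologicalSpace.SeparableSpace X] [Nontrivial X]
      [NormedAddCommGroup Y] [NormedSpace ℝ Y] [CompleteSpace Y]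
      [TopologicalSpace.SeparableSpace Y] [Nontrivial Y]
      (f : Metric.sphere (0 : X) 1 → Metric.sphere (0 : Y) 1),
      Isometry f → Function.Surjective f →
      ∃ T : X ≃ₗᵢ[ℝ] Y, ∀ x : Metric.sphere (0 : X) 1, T (x : X) = (f x : Y)) :
    ∀ (X : Type u) (Y : Type v)
      [NormedAddCommGroup X] [NormedSpace ℝ X] [CompleteSpace X]
      [NormedAddCommGroup Y] [NormedSpace ℝ Y] [CompleteSpace Y]
      (f : Metric.sphere (0 : X) 1 → Metric.sphere (0 : Y) 1),
      Isometry f → Function.Surjective f →
      ∃ T : X ≃ₗᵢ[ℝ] Y, ∀ x : Metric.sphere (0 : X) 1, T (x : X) = (f x : Y) := by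
  intro X Y _ _ _ _ _ _ f hf hs
  refine Vale.Agent.Lib.P084.extends_of_additive f hf hs
    (Vale.Agent.Lib.P084.sep_additive ?_ f hf hs)
  intro E hEc hEs hEn Z _ _ _ _ _ g hg hgs
  have : CompleteSpace E := hEc.completeSpace_coe
  have : TopologicalSpace.SeparableSpace E := hEs.separableSpace
  exact hsep E Z g hg hgs

end Vale.Agent.Results.P084.SeparableReduction
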